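import Vale.Agent.P091.H253.Grid
import Vale.Agent.P091.H253.Weak

/-!
# P091 : the final theorem, from `PGRID`

`final_of` is the literal statement of the hand-in (Q1 and the weak `L¹` estimate) as a
consequence of the finite statement `PGRID`.
-/

open MeasureTheory AddCircle Filter Topology

namespace Vale.Agent.P091.H34

/-- Q1 and its stronger formulation, from `PGRID`. -/
theorem final_of (hG : H253.PGRID) (T : ℝ) [Fact (0 < T)] :
    (∀ f : AddCircle T → ℂ, AEStronglyMeasurable f haarAddCircle →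
      Integrable (fun x => ‖f x‖ * Real.log (2 + ‖f x‖)) haarAddCircle →
      ∀ᵐ x ∂haarAddCircle, Tendsto (fun N : ℕ =>
        ∑ k ∈ Finset.Icc (-(N : ℤ)) (N : ℤ), fourierCoeff f k * fourier k x)
        atTop (𝓝 (f x))) ∧
    ∃ C : ℝ, 0 < C ∧ ∀ (f : AddCircle T → ℂ) (a : ℝ),
      AEStronglyMeasurable f haarAddCircle → 0 < a →
      Integrable (fun x => ‖f x‖ / a * Real.log (2 + ‖f x‖ / a)) haarAddCircle →
      ∫ x, ‖f x‖ / a * Real.log (2 + ‖f x‖ / a) ∂haarAddCircle ≤ 1 →
      ∀ lam : ℝ, 0 < lam →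
        haarAddCircle {x : AddCircle T | ∃ N : ℕ, lam <
          ‖∑ k ∈ Finset.Icc (-(N : ℤ)) (N : ℤ), fourierCoeff f k * fourier k x‖} ≤
        ENNReal.ofReal (C * a / lam) :=
  ⟨fun f hm hL => H253.ae_convergence_of_PGRID hG f hm hL,
    H253.weak_type (H253.PAw_of_PGRID CH.H69.pHL1 hG)⟩

end Vale.Agent.P091.H34
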